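import Vale.Agent.P340.Main
import Vale.Agent.P340.Fin

namespace Vale.Agent.Results.P340.FiniteLF

open Vale.Agent.P340

universe u

theorem result :
    ((∀ (n : ℕ) (Ax : Fin n → Fin n → Prop) (Ru : Fin n → Fin n → Fin n → Prop),
        WN Ax Ru → SN Ax Ru) →
      ∀ (S : Type u) (Ax : S → S → Prop) (Ru : S → S → S → Prop), WN Ax Ru → SN Ax Ru) ∧
    ∀ (S : Type u) (Ax : S → S → Prop) (Ru : S → S → S → Prop) (D : Set S),
      (∀ s t, Ax s t → t ∉ D) →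
      (∀ s₁ s₂ s₃, Ru s₁ s₂ s₃ → s₁ ∈ D ∧ (s₃ ∈ D → s₂ ∈ D)) → SN Ax Ru :=
  ⟨fun H _ Ax Ru h => finite_red H Ax Ru h, fun _ _ _ _ hA hR => sn_of hA hR⟩

end Vale.Agent.Results.P340.FiniteLF
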